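import Vale.Agent.P218.H588.Dyn
import Vale.Agent.P218.H313.Sec

/-! The dynamic package `DynP` holds for every rescaled flow; the tangential gradient with weight
is controlled at the good times. -/

open MeasureTheory Set Filter Topology Metric
open scoped ENNReal NNReal RealInnerProductSpace CompactlySupported

namespace Vale.Agent.P218.H969

open Vale.Agent.P214 (IntegralVarifold proj divAlong IsTestField)
open Vale.Agent.P218.H313

set_option linter.unusedSectionVars false
set_option linter.unusedVariables false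

variable {E : Type*} [NormedAddCommGroup E] [InnerProductSpace ℝ E] [FiniteDimensional ℝ E]
  [MeasurableSpace E] [BorelSpace E]
variable {m : ℕ} {c K : ℝ}

section static

/-- the tangential gradient with weight is controlled on a good slice -/
theorem exists_TG_le_wt (hE : Module.finrank ℝ E = m + 1) (hc : 0 < c) (hK : 0 ≤ K) (j : ℕ) :
    ∃ C : ℝ, 0 ≤ C ∧ ∀ (W : E → ℝ), TubeD W c K → ∀ (μ : Measure E) (T : E → Submodule ℝ E)
      (H : E → E), GSlice m μ T H →
      TG μ T W j ≤ C * (DD μ W j + DD μ W (2 * j) + dis μ T H) := by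
  obtain ⟨C₀, hC₀, hpt⟩ := TubeD.pointwise (E := E) hE hc hK
  refine ⟨C₀ + 2 * j ^ 2 + K, by positivity, fun W hW μ T H hS => ?_⟩
  set F : E → ℝ := fun x => 2 * (W x * wt j x) with hF
  have hFpg : PG F := (hW.pg.mul (PG.wt j)).const_mul 2
  have hXpg : PG (fun x => F x • grad W x) := hFpg.smul hW.pg_grad
  have hwfv := hS.wfv hXpg.cd hXpg.b0 hXpg.b1
  have gF : ∀ x, grad F x = (2 * W x) • grad (wt j) x + (2 * wt j x) • grad W x := by
    intro x
    rw [hF, grad_const_mul 2 ((hW.pg.mul (PG.wt j)).diff x),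
      grad_mul (hW.diff x) ((PG.wt j).diff x), smul_add, smul_smul, smul_smul]
  have hdiv : ∀ x, divAlong (T x) (fun x => F x • grad W x) x
      = 2 * W x * wt j x * tr ((proj (T x)).comp (fderiv ℝ (grad W) x))
        + 2 * W x * ⟪grad (wt j) x, proj (T x) (grad W x)⟫
        + 2 * wt j x * ‖proj (T x) (grad W x)‖ ^ 2 := by
    intro x
    rw [divAlong_smul (T x) (hFpg.diff x) (hW.pg_grad.diff x), gF, map_add, map_smul, map_smul,
      inner_add_left, real_inner_smul_left, real_inner_smul_left, divAlong_eq,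
      H552.inner_proj_left, ← norm_proj_sq]
    simp only [hF]
    ring
  -- first part
  have part1 : ∫ x, ⟪F x • grad W x, vel T H x⟫ * rho x ∂μ
      ≤ - TG μ T W j + (C₀ + 2 * j ^ 2) * DD μ W j := by
    have e1 : ∫ x, ⟪F x • grad W x, vel T H x⟫ * rho x ∂μ
        = ∫ x, -((divAlong (T x) (fun x => F x • grad W x) x
          - 1 / 2 * ⟪x, F x • grad W x⟫) * rho x) ∂μ := by
      rw [integral_neg, hwfv, neg_neg]
    have e2 : - TG μ T W j + (C₀ + 2 * j ^ 2) * DD μ W j
        = ∫ x, (-(wt j x * ‖proj (T x) (grad W x)‖ ^ 2 * rho x)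
          + (C₀ + 2 * j ^ 2) * (W x ^ 2 * wt j x * rho x)) ∂μ := by
      have := integral_comb2 (hS.int_TG hW j) (hS.int_DD hW j) (-1) (C₀ + 2 * j ^ 2)
      simp only [neg_mul, one_mul] at this
      rw [this]; rfl
    rw [e1, e2]
    refine integral_mono_ae ?_ ?_ ?_
    · have i1 := hS.integrable_div hXpg.cd hXpg.b1
      have i2 : Integrable (fun x => ⟪x, F x • grad W x⟫ * rho x) μ :=
        hS.integrable_PB (continuous_id.inner hXpg.cont).aestronglyMeasurable
          (PB.id'.inner' hXpg.b0)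
      refine (i1.sub (i2.const_mul (1 / 2))).neg.congr (Eventually.of_forall fun x => ?_)
      simp only [Pi.neg_apply, Pi.sub_apply]
      ring
    · exact (hS.int_TG hW j).neg.add ((hS.int_DD hW j).const_mul _)
    · filter_upwards [hS.mc.dim] with x hx
      have h1 := hpt W hW x (T x) hx
      have h2 := norm_grad_wt_le j x
      have h3 := wt_pos j x
      have h4 := rho_pos x
      set g2 := ‖proj (T x) (grad W x)‖ with hg2
      have h5 : -(2 * W x * ⟪grad (wt j) x, proj (T x) (grad W x)⟫)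
          ≤ wt j x * (1 / 2 * g2 ^ 2 + 2 * j ^ 2 * W x ^ 2) := by
        calc -(2 * W x * ⟪grad (wt j) x, proj (T x) (grad W x)⟫)
            ≤ |2 * W x * ⟪grad (wt j) x, proj (T x) (grad W x)⟫| := neg_le_abs _
          _ = 2 * |W x| * |⟪grad (wt j) x, proj (T x) (grad W x)⟫| := by
              rw [abs_mul, abs_mul, abs_two]
          _ ≤ 2 * |W x| * ((j * wt j x) * g2) := by
              gcongr
              exact (abs_real_inner_le_norm _ _).trans (mul_le_mul_of_nonneg_right h2 (norm_nonneg _))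
          _ = wt j x * (2 * (j * |W x|) * g2) := by ring
          _ ≤ wt j x * (1 / 2 * g2 ^ 2 + 2 * j ^ 2 * W x ^ 2) := by
              refine mul_le_mul_of_nonneg_left ?_ h3.le
              have : W x ^ 2 = |W x| ^ 2 := (sq_abs _).symm
              rw [this]
              nlinarith [sq_nonneg (g2 - 2 * (j * |W x|))]
      rw [hdiv, real_inner_smul_right]
      have h6 : -((2 * W x * wt j x * tr ((proj (T x)).comp (fderiv ℝ (grad W) x))
          + 2 * W x * ⟪grad (wt j) x, proj (T x) (grad W x)⟫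
          + 2 * wt j x * g2 ^ 2) - 1 / 2 * (F x * ⟪x, grad W x⟫))
          ≤ -(wt j x * g2 ^ 2) + (C₀ + 2 * j ^ 2) * (W x ^ 2 * wt j x) := by
        have e : -((2 * W x * wt j x * tr ((proj (T x)).comp (fderiv ℝ (grad W) x))
          + 2 * W x * ⟪grad (wt j) x, proj (T x) (grad W x)⟫
          + 2 * wt j x * g2 ^ 2) - 1 / 2 * (F x * ⟪x, grad W x⟫))
          = wt j x * (-(2 * W x * (tr ((proj (T x)).comp (fderiv ℝ (grad W) x))
              - 1 / 2 * ⟪x, grad W x⟫)))
            + (-(2 * W x * ⟪grad (wt j) x, proj (T x) (grad W x)⟫)) - 2 * wt j x * g2 ^ 2 := by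
          simp only [hF]; ring
        rw [e]
        have h7 := mul_le_mul_of_nonneg_left h1 h3.le
        nlinarith
      have h7 := mul_le_mul_of_nonneg_right h6 h4.le
      nlinarith
  -- second part
  have part2 : -∫ x, ⟪F x • grad W x, vel T H x⟫ * rho x ∂μ
      ≤ K * (DD μ W (2 * j) + dis μ T H) := by
    rw [← integral_neg]
    have e : K * (DD μ W (2 * j) + dis μ T H)
        = ∫ x, (K * (W x ^ 2 * wt (2 * j) x * rho x) + K * (‖vel T H x‖ ^ 2 * rho x)) ∂μ := by
      rw [integral_comb2 (hS.int_DD hW (2 * j)) hS.int_vel_sq, mul_add]; rfl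
    rw [e]
    refine integral_mono ?_ ?_ fun x => ?_
    · exact (hS.integrable_inner_vel hXpg.cont.aestronglyMeasurable hXpg.b0).neg
    · exact ((hS.int_DD hW (2 * j)).const_mul _).add (hS.int_vel_sq.const_mul _)
    · have h3 := wt_pos j x
      have h4 := rho_pos x
      have h5 : -⟪F x • grad W x, vel T H x⟫
          ≤ K * (W x ^ 2 * wt (2 * j) x) + K * ‖vel T H x‖ ^ 2 := by
        have ew : wt (2 * j) x = wt j x ^ 2 := by
          unfold wt; rw [mul_comm 2 j, pow_mul]
        rw [real_inner_smul_left]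
        calc -(F x * ⟪grad W x, vel T H x⟫) ≤ |F x * ⟪grad W x, vel T H x⟫| := neg_le_abs _
          _ = 2 * (|W x| * wt j x) * |⟪grad W x, vel T H x⟫| := by
              rw [abs_mul, hF]
              simp only
              rw [abs_mul, abs_mul, abs_two, abs_of_pos h3]
          _ ≤ 2 * (|W x| * wt j x) * (K * ‖vel T H x‖) := by
              gcongr
              exact (abs_real_inner_le_norm _ _).trans
                (mul_le_mul_of_nonneg_right (hW.b1 x) (norm_nonneg _))
          _ ≤ K * (W x ^ 2 * wt (2 * j) x) + K * ‖vel T H x‖ ^ 2 := by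
              have : W x ^ 2 = |W x| ^ 2 := (sq_abs _).symm
              rw [this, ew]
              nlinarith [mul_nonneg hK (sq_nonneg (|W x| * wt j x - ‖vel T H x‖))]
      have h6 := mul_le_mul_of_nonneg_right h5 h4.le
      simp only
      nlinarith
  have h1 := DD_nonneg (μ := μ) (W := W) j
  have h2 := DD_nonneg (μ := μ) (W := W) (2 * j)
  have h3 := dis_nonneg (μ := μ) (T := T) (H := H)
  have h4 : (C₀ + 2 * j ^ 2 + K) * (DD μ W j + DD μ W (2 * j) + dis μ T H)
      = ((C₀ + 2 * j ^ 2) * DD μ W j + K * (DD μ W (2 * j) + dis μ T H))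
        + (K * DD μ W j + (C₀ + 2 * j ^ 2) * (DD μ W (2 * j) + dis μ T H)) := by ring
  have h5 : 0 ≤ K * DD μ W j + (C₀ + 2 * j ^ 2) * (DD μ W (2 * j) + dis μ T H) := by positivity
  rw [h4]
  linarith

end static

variable {N : ℝ → Measure E} {T : ℝ → E → Submodule ℝ E} {H : ℝ → E → E} {s₀ : ℝ}

/-- weight `J` at the good times -/
theorem tg_bd (h : RF m N T H s₀) (hE : Module.finrank ℝ E = m + 1) (hc : 0 < c) (hK : 0 ≤ K)
    (J : ℕ) :
    ∃ C : ℝ, 0 ≤ C ∧ ∀ W : E → ℝ, TubeD W c K → ∀ s : ℝ, s₀ + 1 ≤ s →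
      GSlice m (N s) (T s) (H s) →
      DD (N s) W J + TG (N s) (T s) W J
        ≤ C * (DD (N s) W 0 + dis (N s) (T s) (H s) + (FA (N (s - 1)) - FA (N s))) := by
  obtain ⟨C₁, hC₁, h1⟩ := exists_TG_le_wt (E := E) hE hc hK J
  obtain ⟨C₂, hC₂, h2⟩ := H588.moments h hE hc hK J
  obtain ⟨C₃, hC₃, h3⟩ := H588.moments h hE hc hK (2 * J)
  refine ⟨C₂ + C₁ * (C₂ + C₃ + 1), by positivity, fun W hW s hs hS => ?_⟩
  have a1 := h1 W hW _ _ _ hS
  have a2 := h2 W hW s hs
  have a3 := h3 W hW s hs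
  have a4 : 0 ≤ FA (N (s - 1)) - FA (N s) := by
    have := h.FA_anti (a := s - 1) (b := s) (by linarith) (by linarith)
    linarith
  have a5 := DD_nonneg (μ := N s) (W := W) 0
  have a6 := dis_nonneg (μ := N s) (T := T s) (H := H s)
  set X := DD (N s) W 0 + (FA (N (s - 1)) - FA (N s)) with hX
  have hX0 : 0 ≤ X := by positivity
  have a7 : C₁ * (DD (N s) W J + DD (N s) W (2 * J) + dis (N s) (T s) (H s))
      ≤ C₁ * (C₂ * X + C₃ * X + dis (N s) (T s) (H s)) :=
    mul_le_mul_of_nonneg_left (by linarith) hC₁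
  have e : (C₂ + C₁ * (C₂ + C₃ + 1)) * (DD (N s) W 0 + dis (N s) (T s) (H s)
      + (FA (N (s - 1)) - FA (N s)))
      = (C₂ * X + C₁ * (C₂ * X + C₃ * X + dis (N s) (T s) (H s)))
        + (C₁ * X + (C₂ + C₁ * (C₂ + C₃)) * dis (N s) (T s) (H s)) := by
    rw [hX]; ring
  have e' : 0 ≤ C₁ * X + (C₂ + C₁ * (C₂ + C₃)) * dis (N s) (T s) (H s) := by positivity
  rw [e]
  linarith

/-- **the dynamic package** -/
theorem dynP_of_RF (h : RF m N T H s₀) (hE : Module.finrank ℝ E = m + 1) (hc : 0 < c)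
    (hK : 0 ≤ K) (q J : ℕ) : ∃ δ : ℝ, DynP m N T H s₀ c K q J δ := by
  obtain ⟨δ₁, hδ₁, h1⟩ := H588.exists_shortj h hE hc hK J
  obtain ⟨δ₂, hδ₂, C₂, hC₂, h2⟩ := h.exists_drift hE hc hK
  obtain ⟨δ₃, hδ₃, h3⟩ := H588.dyn_of_RF h hE c K q hc hK
  obtain ⟨C₄, hC₄, h4⟩ := H588.moments h hE hc hK J
  obtain ⟨C₅, hC₅, h5⟩ := H588.moments h hE hc hK 1
  set δ := min (min δ₁ δ₂) (min δ₃ 1) with hδ
  have d1 : δ ≤ δ₁ := (min_le_left _ _).trans (min_le_left _ _)
  have d2 : δ ≤ δ₂ := (min_le_left _ _).trans (min_le_right _ _)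
  have d3 : δ ≤ δ₃ := (min_le_right _ _).trans (min_le_left _ _)
  have d4 : δ ≤ 1 := (min_le_right _ _).trans (min_le_right _ _)
  refine ⟨δ, lt_min (lt_min hδ₁ hδ₂) (lt_min hδ₃ one_pos), d4, ⟨2 * C₄, by positivity, ?_⟩,
    ⟨C₂ * (C₅ + 1), by positivity, ?_⟩, fun ε hε => ?_⟩
  · intro W hW a b ha hab hb
    obtain ⟨g1, G, g2, g3, g4⟩ := h1 W hW a b (by linarith) hab (by linarith)
    have g5 := h4 W hW a ha
    have g6 := h.FA_anti (a := a) (b := b) (by linarith) hab
    have g7 : 2 * DD (N a) W J ≤ 2 * C₄ * (DD (N a) W 0 + (FA (N (a - 1)) - FA (N b))) := by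
      have : C₄ * (DD (N a) W 0 + (FA (N (a - 1)) - FA (N a)))
          ≤ C₄ * (DD (N a) W 0 + (FA (N (a - 1)) - FA (N b))) :=
        mul_le_mul_of_nonneg_left (by linarith) hC₄
      linarith
    refine ⟨fun s hs => (g1 s hs).trans g7, G, g2, ?_, g4.trans g7⟩
    filter_upwards [g3] with s hs
    refine ⟨hs.1, ?_⟩
    have := VW_nonneg (μ := N s) (T := T s) (H := H s) (W := W) J
    linarith [hs.2]
  · intro W hW ψ A hA hψ hψb hψg a b ha hab hb
    have g1 := h2 W hW ψ A hA hψ hψb hψg a b (by linarith) hab (by linarith)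
    refine g1.trans ?_
    have g5 := h5 W hW a ha
    have g6 := h.FA_anti (a := a) (b := b) (by linarith) hab
    have g7 := h.FA_anti (a := a - 1) (b := a) (by linarith) (by linarith)
    have g8 := DD_nonneg (μ := N a) (W := W) 0
    have g9 : DD (N a) W 1 + (FA (N a) - FA (N b))
        ≤ (C₅ + 1) * (DD (N a) W 0 + (FA (N (a - 1)) - FA (N b))) := by
      have t1 : C₅ * (DD (N a) W 0 + (FA (N (a - 1)) - FA (N a)))
          ≤ C₅ * (DD (N a) W 0 + (FA (N (a - 1)) - FA (N b))) :=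
        mul_le_mul_of_nonneg_left (by linarith) hC₅
      have t2 : (C₅ + 1) * (DD (N a) W 0 + (FA (N (a - 1)) - FA (N b)))
          = C₅ * (DD (N a) W 0 + (FA (N (a - 1)) - FA (N b)))
            + (DD (N a) W 0 + (FA (N (a - 1)) - FA (N b))) := by ring
      rw [t2]
      linarith
    have g10 : C₂ * A * (DD (N a) W 1 + (FA (N a) - FA (N b)))
        ≤ C₂ * A * ((C₅ + 1) * (DD (N a) W 0 + (FA (N (a - 1)) - FA (N b)))) :=
      mul_le_mul_of_nonneg_left g9 (by positivity)
    refine g10.trans (le_of_eq ?_)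
    ring
  · obtain ⟨C, hC, h6⟩ := h3 ε hε
    exact ⟨C, hC, fun W hW ψ A hA hψ hψb a b ha hab hb v Θ hΘ hr =>
      h6 W hW ψ A hA hψ hψb a b ha hab (by linarith) v Θ hΘ hr⟩

end Vale.Agent.P218.H969
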