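import Vale.Agent.P218.H969.Nat
import Vale.Agent.P218.H333.Tube3

/-! The natural hypotheses give a tube function, a complement of the stabiliser, and `SOD`. -/

open MeasureTheory Set Filter Topology Metric
open scoped ENNReal NNReal RealInnerProductSpace

namespace Vale.Agent.P218.H969

open Vale.Agent.P218.H313
open Vale.Agent.P218.H63 (IsTubeShrinker IsJacobiField gaussArea stab)
open Vale.Agent.P218.H588 (cubicForm IsJacobiBasis SecondOrderNondegenerate SOD Phi lc)

variable {E : Type*} [NormedAddCommGroup E] [InnerProductSpace ℝ E] [FiniteDimensional ℝ E]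
  [MeasurableSpace E] [BorelSpace E]
variable {m : ℕ} {S : Set E} {w : E → ℝ} {δ C : ℝ} {q k : ℕ} {v : Fin k → E → ℝ}

/-- **all the second-order data from the natural hypotheses** -/
theorem exists_sod (hE : Module.finrank ℝ E = m + 1) (hS : IsTubeShrinker S w δ C)
    (h3 : ∀ x, |w x| < δ → ‖fderiv ℝ (fderiv ℝ (gradient w)) x‖ ≤ C * (1 + ‖x‖) ^ q)
    {C' : ℝ} {q₁ : ℕ} (hv : IsJacobiBasis m S w δ C' q₁ v)
    (hnd : SecondOrderNondegenerate m S w v) :
    ∃ (W : E → ℝ) (c K : ℝ) (q' : ℕ) (M' : Submodule ℝ (E →L[ℝ] E)) (l : ℕ)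
      (b : Module.Basis (Fin l) ℝ M'), TubeD W c K ∧ M' ≤ skew E ∧ {x | W x = 0} = S ∧
      (∀ B : M', (∀ᵐ x ∂(μH[m] : Measure E).restrict S, ⟪grad W x, (B : E →L[ℝ] E) x⟫ = 0)
        → B = 0) ∧
      SOD m ((μH[m] : Measure E).restrict S) W c K q' v
        (fun j x => -2 * ⟪grad W x, (b j : E →L[ℝ] E) x⟫) := by
  obtain ⟨W, c, K, hW, hWS, hcδ, hnear, hsm, hg, hH, hW3, hWb3⟩ := H333.exists_tubeD3 hS h3
  obtain ⟨M', hM', hspan, hinj⟩ := exists_compl ((μH[m] : Measure E).restrict S) W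
  let b := Module.finBasis ℝ M'
  obtain ⟨K', q', h⟩ := sod_of hE hS hW hWS hcδ hsm hg hH hW3 hWb3 hv hnd hM' b hspan
  refine ⟨W, c, K', q', M', _, b, h.tube, hM', by ext x; exact hWS x, fun B hB => ?_, h⟩
  refine Subtype.ext (hinj B B.2 ?_)
  filter_upwards [hB] with x hx
  rw [real_inner_comm]; exact hx

end Vale.Agent.P218.H969
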