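import Vale.Agent.P218.H588.Rot
import Vale.Agent.P218.H588.Q
import Vale.Agent.P218.H313.CayAlg

/-! Rotation of slices, second part (on top of `H588.Rot`): tangential gradients, rates of
arbitrary functions, coordinates, and the filters `nearF`, `nearS`. -/

open MeasureTheory Set Filter Topology Metric
open scoped ENNReal NNReal RealInnerProductSpace CompactlySupported

namespace Vale.Agent.P218.H969

open Vale.Agent.P214 (IntegralVarifold proj divAlong IsTestField)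
open Vale.Agent.P218.H313
open Vale.Agent.P218.H588 (Tri nearS rM rT rH int_rM integrable_rM aesm_rM ae_rM me rT_apply
  rH_apply proj_map rho_iso vel_iso GSlice_iso DD_iso dis_iso nh_iso lc co rsq)
open Vale.Agent.P218.H552 (MC)

set_option linter.unusedSectionVars false
set_option linter.unusedVariables false

variable {E : Type*} [NormedAddCommGroup E] [InnerProductSpace ℝ E] [FiniteDimensional ℝ E]
  [MeasurableSpace E] [BorelSpace E]
variable {μ : Measure E} {T : E → Submodule ℝ E} {H : E → E} {m : ℕ} {ι : Type*}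

@[simp] lemma wt_iso (Q : E ≃ₗᵢ[ℝ] E) (j : ℕ) (x : E) : wt j (Q x) = wt j x := by
  unfold wt; rw [Q.norm_map]

lemma proj_iso (Q : E ≃ₗᵢ[ℝ] E) (x v : E) :
    proj (rT Q T (Q x)) (Q v) = Q (proj (T x) v) := by
  rw [rT_apply, proj_map, Q.symm_apply_apply]

lemma inner_symm_iso (Q : E ≃ₗᵢ[ℝ] E) (u v : E) : ⟪Q.symm u, v⟫ = ⟪u, Q v⟫ := by
  rw [← Q.inner_map_map (Q.symm u) v, Q.apply_symm_apply]

/-- the gradient of a rotated function; no smoothness needed -/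
lemma grad_iso (Q : E ≃ₗᵢ[ℝ] E) (f : E → ℝ) (x : E) :
    grad (fun y => f (Q y)) x = Q.symm (grad f (Q x)) := by
  refine grad_unique fun v => ?_
  have h : fderiv ℝ (fun y => f (Q y)) x
      = (fderiv ℝ f (Q x)).comp (Q.toContinuousLinearEquiv : E →L[ℝ] E) :=
    Q.toContinuousLinearEquiv.comp_right_fderiv
  rw [h, inner_symm_iso, inner_grad]
  rfl

lemma fderiv_iso (Q : E ≃ₗᵢ[ℝ] E) (f : E → ℝ) (x v : E) :
    fderiv ℝ (fun y => f (Q y)) x v = fderiv ℝ f (Q x) (Q v) := by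
  have h : fderiv ℝ (fun y => f (Q y)) x
      = (fderiv ℝ f (Q x)).comp (Q.toContinuousLinearEquiv : E →L[ℝ] E) :=
    Q.toContinuousLinearEquiv.comp_right_fderiv
  rw [h]; rfl

lemma TG_iso (Q : E ≃ₗᵢ[ℝ] E) (W : E → ℝ) (j : ℕ) :
    TG (rM Q μ) (rT Q T) W j = TG μ T (fun x => W (Q x)) j := by
  unfold TG
  rw [int_rM]
  refine integral_congr_ae (Eventually.of_forall fun x => ?_)
  simp only [wt_iso, rho_iso]
  have h1 : grad W (Q x) = Q (grad (fun x => W (Q x)) x) := by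
    rw [grad_iso, Q.apply_symm_apply]
  rw [h1, proj_iso, Q.norm_map]

lemma VW_iso (Q : E ≃ₗᵢ[ℝ] E) (W : E → ℝ) (j : ℕ) :
    VW (rM Q μ) (rT Q T) (rH Q H) W j = VW μ T H (fun x => W (Q x)) j := by
  unfold VW
  rw [int_rM]
  simp only [vel_iso, wt_iso, rho_iso, LinearIsometryEquiv.norm_map]

/-- the rate, without smoothness -/
lemma EE_iso' (Q : E ≃ₗᵢ[ℝ] E) (ψ : E → ℝ) :
    EE (rM Q μ) (rT Q T) (rH Q H) ψ = EE μ T H (fun x => ψ (Q x)) := by
  unfold EE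
  rw [int_rM]
  refine integral_congr_ae (Eventually.of_forall fun x => ?_)
  simp only [rho_iso, vel_iso, grad_iso, inner_symm_iso]

lemma LL_iso (Q : E ≃ₗᵢ[ℝ] E) (f : E → ℝ) :
    LL (rM Q μ) (rT Q T) (rH Q H) f = LL μ T H (fun x => f (Q x)) := by
  unfold LL
  rw [int_rM]
  refine integral_congr_ae (Eventually.of_forall fun x => ?_)
  simp only [rho_iso, vel_iso, fderiv_iso, LinearIsometryEquiv.norm_map]

lemma mom_iso (Q : E ≃ₗᵢ[ℝ] E) (p : ℕ) :
    ∫ x, (1 + ‖x‖) ^ p * rho x ∂(rM Q μ) = ∫ x, (1 + ‖x‖) ^ p * rho x ∂μ := by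
  rw [int_rM]
  simp only [rho_iso, LinearIsometryEquiv.norm_map]

lemma ball_iso (Q : E ≃ₗᵢ[ℝ] E) (x : E) (r : ℝ) :
    (rM Q μ).real (closedBall x r) = μ.real (closedBall (Q.symm x) r) := by
  unfold rM
  rw [measureReal_def, measureReal_def, (me Q).map_apply]
  congr 2
  ext y
  rw [mem_preimage, mem_closedBall, mem_closedBall, ← Q.apply_symm_apply x, Q.dist_map,
    Q.symm_apply_apply]

/-! ### coordinates -/

lemma int_mul_iso (Q : E ≃ₗᵢ[ℝ] E) (f : E → ℝ) :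
    ∫ x, f x * rho x ∂(rM Q μ) = ∫ x, f (Q x) * rho x ∂μ := by
  rw [int_rM]
  simp only [rho_iso]

lemma co_iso (Q : E ≃ₗᵢ[ℝ] E) {k : ℕ} (W : E → ℝ) (ζ : Fin k → E → ℝ) :
    co W ζ (rM Q μ) = co (fun x => W (Q x)) (fun i x => ζ i (Q x)) μ := by
  unfold co
  congr 1
  ext i
  rw [int_rM]
  simp only [rho_iso]

lemma co_apply {k : ℕ} (W : E → ℝ) (ζ : Fin k → E → ℝ) (i : Fin k) :
    co W ζ μ i = ∫ x, W x * ζ i x * rho x ∂μ := rfl

lemma co_iso_apply (Q : E ≃ₗᵢ[ℝ] E) {k : ℕ} (W : E → ℝ) (ζ : Fin k → E → ℝ) (i : Fin k) :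
    co W ζ (rM Q μ) i = ∫ x, W (Q x) * ζ i (Q x) * rho x ∂μ := by
  rw [co_iso, co_apply]

lemma rsq_iso (Q : E ≃ₗᵢ[ℝ] E) {l : ℕ} (W : E → ℝ) (η : Fin l → E → ℝ) :
    rsq W η (rM Q μ) = ∑ j, (∫ x, W (Q x) * η j (Q x) * rho x ∂μ) ^ 2 := by
  unfold rsq
  refine Finset.sum_congr rfl fun j _ => ?_
  rw [int_rM]
  simp only [rho_iso]

/-! ### weak limits -/

/-- a compactly supported function and its rotation: pointwise estimate by the Gaussian weight -/
lemma rot_close {φ : E → ℝ} (hc : Continuous φ) (hs : HasCompactSupport φ) {ε : ℝ} (hε : 0 < ε) :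
    ∃ δ : ℝ, 0 < δ ∧ ∀ (Q : E ≃ₗᵢ[ℝ] E) (η : ℝ), η ≤ δ → (∀ x, ‖Q x - x‖ ≤ η * ‖x‖) →
      ∀ x, |φ (Q x) - φ x| ≤ ε * rho x := by
  obtain ⟨R, hR0, hR⟩ : ∃ R : ℝ, 0 < R ∧ ∀ x, R ≤ ‖x‖ → φ x = 0 := by
    obtain ⟨R, hR⟩ := hs.isCompact.isBounded.subset_closedBall (0 : E)
    refine ⟨|R| + 1, by positivity, fun x hx => ?_⟩
    by_contra h
    have h1 : x ∈ tsupport φ := subset_tsupport φ (Function.mem_support.2 h)
    have h2 := mem_closedBall_zero_iff.1 (hR h1)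
    have := le_abs_self R
    linarith
  have hu : UniformContinuous φ := hc.uniformContinuous_of_tendsto_cocompact
    (x := 0) (hs.is_zero_at_infty)
  have hrho : 0 < Real.exp (-R ^ 2 / 4) := Real.exp_pos _
  obtain ⟨δ, hδ, h⟩ := Metric.uniformContinuous_iff.1 hu (ε * Real.exp (-R ^ 2 / 4)) (by positivity)
  refine ⟨δ / (2 * R), by positivity, fun Q η hη hQ x => ?_⟩
  have hrx := rho_pos x
  by_cases hx : R ≤ ‖x‖
  · rw [hR x hx, hR (Q x) (by rw [Q.norm_map]; exact hx)]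
    simp
    positivity
  · push Not at hx
    have h1 : dist (Q x) x < δ := by
      rw [dist_eq_norm]
      refine (hQ x).trans_lt ?_
      have h2 : η * ‖x‖ ≤ δ / (2 * R) * ‖x‖ := by gcongr
      have h3 : δ / (2 * R) * ‖x‖ ≤ δ / (2 * R) * R := by gcongr
      have h4 : δ / (2 * R) * R = δ / 2 := by field_simp
      linarith
    have h2 := h h1
    rw [Real.dist_eq] at h2
    refine h2.le.trans ?_
    refine mul_le_mul_of_nonneg_left ?_ hε.le
    unfold rho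
    refine Real.exp_le_exp.2 ?_
    have h3 : ‖x‖ ^ 2 ≤ R ^ 2 := by
      have := norm_nonneg x
      gcongr
    linarith

/-- weak limits are not changed by rotations tending to the identity -/
lemma lim_rot {l : Filter ι} {N : ι → Measure E}
    (hfin : ∀ᶠ i in l, IsFiniteMeasureOnCompacts (N i))
    (hint : ∀ᶠ i in l, Integrable (fun x => rho x) (N i))
    {C : ℝ} (hmass : ∀ᶠ i in l, ∫ x, rho x ∂(N i) ≤ C)
    {Q : ι → E ≃ₗᵢ[ℝ] E} {η : ι → ℝ} (hη : Tendsto η l (𝓝 0))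
    (hQ : ∀ᶠ i in l, ∀ x, ‖Q i x - x‖ ≤ η i * ‖x‖)
    {φ : E → ℝ} (hc : Continuous φ) (hs : HasCompactSupport φ) {L : ℝ}
    (hL : Tendsto (fun i => ∫ x, φ x ∂(N i)) l (𝓝 L)) :
    Tendsto (fun i => ∫ x, φ x ∂(rM (Q i) (N i))) l (𝓝 L) := by
  have key : Tendsto (fun i => ∫ x, φ x ∂(rM (Q i) (N i)) - ∫ x, φ x ∂(N i)) l (𝓝 0) := by
    rw [Metric.tendsto_nhds]
    intro ε hε
    have hC : 0 < |C| + 1 := by positivity
    obtain ⟨δ, hδ, h⟩ := rot_close hc hs (ε := ε / (2 * (|C| + 1))) (by positivity)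
    have h1 : ∀ᶠ i in l, η i < δ := hη.eventually (gt_mem_nhds hδ)
    filter_upwards [hfin, hint, hmass, hQ, h1] with i hf hi hm hQi hηi
    have h2 := h (Q i) (η i) hηi.le hQi
    rw [dist_zero_right, Real.norm_eq_abs, int_rM]
    have hφ : Integrable φ (N i) := hc.integrable_of_hasCompactSupport hs
    have hφQ : Integrable (fun x => φ (Q i x)) (N i) := by
      refine (hc.comp (Q i).continuous).integrable_of_hasCompactSupport ?_
      exact hs.comp_homeomorph (Q i).toHomeomorph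
    rw [← integral_sub hφQ hφ]
    have h3 : ‖∫ x, (φ (Q i x) - φ x) ∂(N i)‖ ≤ ∫ x, ε / (2 * (|C| + 1)) * rho x ∂(N i) :=
      norm_integral_le_of_norm_le (hi.const_mul _) (Eventually.of_forall h2)
    rw [Real.norm_eq_abs, integral_const_mul] at h3
    refine h3.trans_lt ?_
    have h4 : ε / (2 * (|C| + 1)) * ∫ x, rho x ∂(N i) ≤ ε / (2 * (|C| + 1)) * (|C| + 1) := by
      refine mul_le_mul_of_nonneg_left ?_ (by positivity)
      have := le_abs_self C
      linarith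
    have h5 : ε / (2 * (|C| + 1)) * (|C| + 1) = ε / 2 := by field_simp
    linarith
  have := key.add hL
  simpa using this

lemma rho_int_of_mom {μ : Measure E} (h : Integrable (fun x => (1 + ‖x‖) ^ 0 * rho x) μ) :
    Integrable (fun x => rho x) μ := by simpa using h

/-- **rotated families**: a converging family of slices, rotated by isometries tending to the
identity, converges to the same limit -/
theorem conv_rot {U : Ultrafilter ι} {N : ι → Measure E} {T : ι → E → Submodule ℝ E}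
    {H : ι → E → E} {κ : Measure E} (h : Conv U m N T H κ)
    {Q : ι → E ≃ₗᵢ[ℝ] E} {η : ι → ℝ} (hη : Tendsto η (U : Filter ι) (𝓝 0))
    (hQ : ∀ᶠ i in (U : Filter ι), ∀ x, ‖Q i x - x‖ ≤ η i * ‖x‖) :
    Conv U m (fun i => rM (Q i) (N i)) (fun i => rT (Q i) (T i))
      (fun i => rH (Q i) (H i)) κ where
  lf := h.lf
  sl := by
    filter_upwards [h.sl] with i hi
    exact GSlice_iso (Q i) hi
  mom := by
    intro p
    obtain ⟨C, hC⟩ := h.mom p
    refine ⟨C, ?_⟩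
    filter_upwards [hC] with i hi
    rw [mom_iso]; exact hi
  ratio := by
    obtain ⟨C, hC⟩ := h.ratio
    refine ⟨C, ?_⟩
    filter_upwards [hC] with i hi x r hr hr1
    rw [ball_iso]; exact hi _ r hr hr1
  lim := by
    intro φ hc hs
    obtain ⟨C, hC⟩ := h.mom 0
    refine lim_rot (C := C) ?_ ?_ ?_ hη hQ hc hs (h.lim φ hc hs)
    · filter_upwards [h.sl] with i hi
      exact hi.mc.fin
    · filter_upwards [h.sl] with i hi
      exact rho_int_of_mom (hi.mom 0)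
    · filter_upwards [hC] with i hi
      simpa using hi

/-! ### the filters `nearS` and `nearF` -/

/-- the rotated slice -/
noncomputable def rotTri (Q : E ≃ₗᵢ[ℝ] E) (t : Tri E) : Tri E :=
  ⟨rM Q t.μ, rT Q t.T, rH Q t.H⟩

lemma nearS_mem {κ : Measure E} {CM : ℕ → ℝ} {CR : ℝ} :
    ∀ᶠ t in nearS m κ CM CR, GSlice m t.μ t.T t.H ∧
      (∀ p, ∫ x, (1 + ‖x‖) ^ p * rho x ∂t.μ ≤ CM p) ∧
      ∀ (x : E) (r : ℝ), 0 < r → r ≤ 1 → t.μ.real (closedBall x r) ≤ CR * r ^ m := by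
  have : nearS m κ CM CR ≤ 𝓟 {t : Tri E | GSlice m t.μ t.T t.H ∧
      (∀ p, ∫ x, (1 + ‖x‖) ^ p * rho x ∂t.μ ≤ CM p) ∧
      ∀ (x : E) (r : ℝ), 0 < r → r ≤ 1 → t.μ.real (closedBall x r) ≤ CR * r ^ m} := inf_le_left
  exact this (mem_principal_self _)

lemma nearS_lim {κ : Measure E} {CM : ℕ → ℝ} {CR : ℝ} {φ : E → ℝ} (hc : Continuous φ)
    (hs : HasCompactSupport φ) :
    Tendsto (fun t : Tri E => ∫ x, φ x ∂t.μ) (nearS m κ CM CR) (𝓝 (∫ x, φ x ∂κ)) := by
  have : nearS m κ CM CR ≤ comap (fun t : Tri E => ∫ x, φ x ∂t.μ) (𝓝 (∫ x, φ x ∂κ)) :=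
    inf_le_right.trans (iInf_le _ (⟨⟨φ, hc⟩, hs⟩ : C_c(E, ℝ)))
  exact tendsto_iff_comap.2 this

lemma tendsto_nearS {l : Filter ι} {t : ι → Tri E} {κ : Measure E} {CM : ℕ → ℝ} {CR : ℝ}
    (h1 : ∀ᶠ i in l, GSlice m (t i).μ (t i).T (t i).H ∧
      (∀ p, ∫ x, (1 + ‖x‖) ^ p * rho x ∂(t i).μ ≤ CM p) ∧
      ∀ (x : E) (r : ℝ), 0 < r → r ≤ 1 → (t i).μ.real (closedBall x r) ≤ CR * r ^ m)
    (h2 : ∀ φ : E → ℝ, Continuous φ → HasCompactSupport φ →
      Tendsto (fun i => ∫ x, φ x ∂(t i).μ) l (𝓝 (∫ x, φ x ∂κ))) :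
    Tendsto t l (nearS m κ CM CR) := by
  refine tendsto_inf.2 ⟨tendsto_principal.2 h1, tendsto_iInf.2 fun φ => ?_⟩
  exact tendsto_comap_iff.2 (h2 φ φ.continuous φ.hasCompactSupport)

/-- **rotation of slices near `κ`** -/
theorem tendsto_nearS_rot {l : Filter ι} {t : ι → Tri E} {κ : Measure E} {CM : ℕ → ℝ} {CR : ℝ}
    (ht : Tendsto t l (nearS m κ CM CR))
    {Q : ι → E ≃ₗᵢ[ℝ] E} {η : ι → ℝ} (hη : Tendsto η l (𝓝 0))
    (hQ : ∀ᶠ i in l, ∀ x, ‖Q i x - x‖ ≤ η i * ‖x‖) :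
    Tendsto (fun i => rotTri (Q i) (t i)) l (nearS m κ CM CR) := by
  have hm := ht.eventually nearS_mem
  refine tendsto_nearS ?_ ?_
  · filter_upwards [hm] with i hi
    refine ⟨GSlice_iso (Q i) hi.1, fun p => ?_, fun x r hr hr1 => ?_⟩
    · exact (mom_iso (Q i) p).le.trans (hi.2.1 p)
    · exact (ball_iso (Q i) x r).le.trans (hi.2.2 _ r hr hr1)
  · intro φ hc hs
    refine lim_rot (C := CM 0) ?_ ?_ ?_ hη hQ hc hs ((nearS_lim hc hs).comp ht)
    · filter_upwards [hm] with i hi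
      exact hi.1.mc.fin
    · filter_upwards [hm] with i hi
      exact rho_int_of_mom (hi.1.mom 0)
    · filter_upwards [hm] with i hi
      simpa using hi.2.1 0

section flow

variable {N : ℝ → Measure E} {T : ℝ → E → Submodule ℝ E} {H : ℝ → E → E} {s₀ : ℝ} {κ : Measure E}

/-- the slices of a flow near `κ` -/
theorem tendsto_nearF_nearS (h : RF m N T H s₀) (κ : Measure E) :
    ∃ (CM : ℕ → ℝ) (CR : ℝ), Tendsto (fun s => (⟨N s, T s, H s⟩ : Tri E)) (nearF m N T H κ)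
      (nearS m κ CM CR) := by
  obtain ⟨CR, hCR⟩ := h.ratio
  choose CM hCM using fun p => h.moment p
  refine ⟨CM, CR, tendsto_nearS ?_ fun φ hc hs => nearF_lim hc hs⟩
  filter_upwards [nearF_sl, nearF_atTop (eventually_ge_atTop s₀)] with s h1 h2
  exact ⟨h1, fun p => (hCM p s h2).2, hCR s h2⟩

/-- the rotation `cay a` as an isometry (the identity if `a` is not skew) -/
noncomputable def cayE (a : E →L[ℝ] E) : E ≃ₗᵢ[ℝ] E :=
  open Classical in
  if ha : a ∈ skew E then (exists_cayE ha).choose else LinearIsometryEquiv.refl ℝ E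

lemma cayE_apply {a : E →L[ℝ] E} (ha : a ∈ skew E) (x : E) : cayE a x = cay a x := by
  unfold cayE
  rw [dif_pos ha]
  exact (exists_cayE ha).choose_spec x

lemma norm_cayE_sub_le (a : E →L[ℝ] E) (x : E) : ‖cayE a x - x‖ ≤ 2 * ‖a‖ * ‖x‖ := by
  by_cases ha : a ∈ skew E
  · have h0 : (0 : E →L[ℝ] E) ∈ skew E := (skew E).zero_mem
    have h := norm_cay_sub_le ha h0 x
    rw [cay_zero, sub_zero] at h
    rw [cayE_apply ha]
    exact h
  · unfold cayE
    rw [dif_neg ha]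
    simp only [LinearIsometryEquiv.coe_refl, id_eq, sub_self, norm_zero]
    positivity

/-- **Row R**: slices near `κ`, rotated by small Cayley rotations, are near `κ` -/
theorem tendsto_rot_nearS (h : RF m N T H s₀) (κ : Measure E)
    (M' : Submodule ℝ (E →L[ℝ] E)) :
    ∃ (CM : ℕ → ℝ) (CR : ℝ), Tendsto
      (fun p : ℝ × M' => rotTri (cayE (p.2 : E →L[ℝ] E)) (⟨N p.1, T p.1, H p.1⟩ : Tri E))
      (nearF m N T H κ ×ˢ 𝓝 0) (nearS m κ CM CR) := by
  obtain ⟨CM, CR, h1⟩ := tendsto_nearF_nearS h κ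
  refine ⟨CM, CR, ?_⟩
  refine tendsto_nearS_rot (η := fun p : ℝ × M' => 2 * ‖(p.2 : E →L[ℝ] E)‖) (h1.comp tendsto_fst)
    ?_ (Eventually.of_forall fun p x => norm_cayE_sub_le _ x)
  have h2 : Tendsto (fun b : M' => 2 * ‖(b : E →L[ℝ] E)‖) (𝓝 0) (𝓝 0) := by
    have h3 : Continuous fun b : M' => 2 * ‖(b : E →L[ℝ] E)‖ := by fun_prop
    have h4 := h3.tendsto 0
    simpa using h4
  exact h2.comp tendsto_snd

end flow

/-! ### the quantities of the slice rotated by `cay a` -/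

section cayley

variable {a : E →L[ℝ] E}

lemma comp_cayE (ha : a ∈ skew E) {F : Type*} (f : E → F) :
    (fun x => f (cayE a x)) = fun x => f (cay a x) := by
  ext x; rw [cayE_apply ha]

lemma rotTri_DD (ha : a ∈ skew E) (t : Tri E) (W : E → ℝ) (j : ℕ) :
    DD (rotTri (cayE a) t).μ W j = DD t.μ (fun x => W (cay a x)) j := by
  rw [← comp_cayE ha]; exact DD_iso (cayE a) W j

lemma rotTri_TG (ha : a ∈ skew E) (t : Tri E) (W : E → ℝ) (j : ℕ) :
    TG (rotTri (cayE a) t).μ (rotTri (cayE a) t).T W j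
      = TG t.μ t.T (fun x => W (cay a x)) j := by
  rw [← comp_cayE ha]; exact TG_iso (cayE a) W j

lemma rotTri_dis (t : Tri E) (Q : E ≃ₗᵢ[ℝ] E) :
    dis (rotTri Q t).μ (rotTri Q t).T (rotTri Q t).H = dis t.μ t.T t.H := dis_iso Q

lemma rotTri_EE (ha : a ∈ skew E) (t : Tri E) (ψ : E → ℝ) :
    EE (rotTri (cayE a) t).μ (rotTri (cayE a) t).T (rotTri (cayE a) t).H ψ
      = EE t.μ t.T t.H (fun x => ψ (cay a x)) := by
  rw [← comp_cayE ha]; exact EE_iso' (cayE a) ψ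

lemma rotTri_int (ha : a ∈ skew E) (t : Tri E) (f : E → ℝ) :
    ∫ x, f x * rho x ∂(rotTri (cayE a) t).μ = ∫ x, f (cay a x) * rho x ∂t.μ := by
  have h : ∫ x, f (cay a x) * rho x ∂t.μ = ∫ x, f (cayE a x) * rho x ∂t.μ := by
    simp_rw [cayE_apply ha]
  rw [h]
  exact int_mul_iso (cayE a) f

lemma rotTri_co (ha : a ∈ skew E) (t : Tri E) {k : ℕ} (W : E → ℝ) (ζ : Fin k → E → ℝ) :
    co W ζ (rotTri (cayE a) t).μ
      = co (fun x => W (cay a x)) (fun i x => ζ i (cay a x)) t.μ := by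
  unfold co
  congr 1
  ext i
  exact rotTri_int ha t (fun x => W x * ζ i x)

lemma rotTri_rsq (ha : a ∈ skew E) (t : Tri E) {l : ℕ} (W : E → ℝ) (η : Fin l → E → ℝ) :
    rsq W η (rotTri (cayE a) t).μ
      = rsq (fun x => W (cay a x)) (fun j x => η j (cay a x)) t.μ := by
  unfold rsq
  refine Finset.sum_congr rfl fun j _ => ?_
  rw [rotTri_int ha t (fun x => W x * η j x)]

/-- pull-back of a property of slices near `κ` -/
theorem pull {N : ℝ → Measure E} {T : ℝ → E → Submodule ℝ E} {H : ℝ → E → E} {κ : Measure E}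
    {CM : ℕ → ℝ} {CR : ℝ} {M' : Submodule ℝ (E →L[ℝ] E)}
    (ht : Tendsto (fun p : ℝ × M' => rotTri (cayE (p.2 : E →L[ℝ] E))
      (⟨N p.1, T p.1, H p.1⟩ : Tri E)) (nearF m N T H κ ×ˢ 𝓝 0) (nearS m κ CM CR))
    {p : Tri E → Prop} (hp : ∀ᶠ t in nearS m κ CM CR, p t) :
    ∀ᶠ x : ℝ × M' in nearF m N T H κ ×ˢ 𝓝 0,
      p (rotTri (cayE (x.2 : E →L[ℝ] E)) ⟨N x.1, T x.1, H x.1⟩) :=
  ht.eventually hp

end cayley

end Vale.Agent.P218.H969
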