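import Vale.Agent.P218.H588.Model
import Vale.Agent.P218.H588.Q
import Vale.Agent.P218.H63.Fin
import Vale.Agent.P218.H313.CayFam

/-! The natural hypotheses give the second-order data `SOD`. -/

open MeasureTheory Set Filter Topology Metric
open scoped ENNReal NNReal RealInnerProductSpace

namespace Vale.Agent.P218.H969

open Vale.Agent.P218.H313
open Vale.Agent.P218.H63 (IsTubeShrinker IsJacobiField gaussArea stab hessSq
  integral_gaussArea gaussArea_ac ac_gaussArea integrable_gaussArea)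
open Vale.Agent.P218.H588 (cubicForm IsJacobiBasis SecondOrderNondegenerate SOD Phi lc)

set_option linter.unusedSectionVars false
set_option linter.unusedVariables false

variable {E : Type*} [NormedAddCommGroup E] [InnerProductSpace ℝ E] [FiniteDimensional ℝ E]

section growth

variable {f : E → ℝ}

/-- `toDual⁻¹` as a real linear isometry -/
noncomputable def dualIso (E : Type*) [NormedAddCommGroup E] [InnerProductSpace ℝ E]
    [FiniteDimensional ℝ E] : (E →L[ℝ] ℝ) →ₗᵢ[ℝ] E :=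
  { toLinearMap := (riesz E).toLinearMap
    norm_map' := fun l => by
      have := FiniteDimensional.complete ℝ E
      exact (InnerProductSpace.toDual ℝ E).symm.norm_map l }

lemma grad_eq_dualIso (f : E → ℝ) : grad f = dualIso E ∘ fderiv ℝ f := rfl

lemma norm_iter_grad {n : ℕ} (hf : ContDiff ℝ (n + 1) f) (x : E) :
    ‖iteratedFDeriv ℝ n (grad f) x‖ = ‖iteratedFDeriv ℝ (n + 1) f x‖ := by
  have h1 : ContDiff ℝ n (fderiv ℝ f) := hf.fderiv_right (m := n) (by norm_cast)
  rw [grad_eq_dualIso, (dualIso E).norm_iteratedFDeriv_comp_left h1.contDiffAt le_rfl,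
    norm_iteratedFDeriv_fderiv]

lemma norm_grad_eq_iter (g : E → ℝ) (x : E) : ‖grad g x‖ = ‖iteratedFDeriv ℝ 1 g x‖ := by
  rw [H313.norm_grad, norm_iteratedFDeriv_one]

lemma norm_hess_eq_iter (hf : ContDiff ℝ 2 f) (x : E) :
    ‖fderiv ℝ (grad f) x‖ = ‖iteratedFDeriv ℝ 2 f x‖ := by
  have e : ((1 : ℕ) + 1 : WithTop ℕ∞) = 2 := by norm_num
  rw [← norm_iteratedFDeriv_one, norm_iter_grad (n := 1) (by rw [e]; exact hf)]

lemma norm_third_eq_iter (hf : ContDiff ℝ 3 f) (x : E) :
    ‖fderiv ℝ (fderiv ℝ (grad f)) x‖ = ‖iteratedFDeriv ℝ 3 f x‖ := by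
  have e : ((2 : ℕ) + 1 : WithTop ℕ∞) = 3 := by norm_num
  rw [← norm_iteratedFDeriv_one, norm_iteratedFDeriv_fderiv,
    norm_iter_grad (n := 2) (by rw [e]; exact hf)]

end growth

variable [MeasurableSpace E] [BorelSpace E]
variable {m : ℕ} {S : Set E} {w W : E → ℝ} {δ C c K : ℝ} {q k l : ℕ} {v : Fin k → E → ℝ}

/-- **the natural hypotheses give the second-order data** -/
theorem sod_of_basis (hE : Module.finrank ℝ E = m + 1) (hS : IsTubeShrinker S w δ C)
    (hW : TubeD W c K) (hWS : ∀ x, W x = 0 ↔ x ∈ S) (hcδ : c < δ)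
    (hsm : ∀ x, |W x| < c → |w x| < c)
    (hg : ∀ x, |w x| < c → grad W x = gradient w x)
    (hH : ∀ x, |w x| < c → fderiv ℝ (grad W) x = fderiv ℝ (gradient w) x)
    (hW3 : ContDiff ℝ 3 W) (hWb3 : PB (fderiv ℝ (fderiv ℝ (grad W))))
    {C' : ℝ} (hv : IsJacobiBasis m S w δ C' q v) (hnd : SecondOrderNondegenerate m S w v)
    {b : Fin l → E →L[ℝ] E} (hb : ∀ j, b j ∈ skew E)
    (hspan : ∀ A ∈ skew E, ∃ y : Fin l → ℝ, ∀ᵐ x ∂(μH[m] : Measure E).restrict S,
      ⟪A x, grad W x⟫ = ∑ j, y j * ⟪b j x, grad W x⟫) :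
    ∃ (K' : ℝ) (q' : ℕ), SOD m ((μH[m] : Measure E).restrict S) W c K' q' v
      (fun j x => ⟪b j x, grad W x⟫) := by
  have hSe : {x | W x = 0} = S := by ext x; exact hWS x
  have hSm : MeasurableSet S := by
    rw [← hSe]; exact (isClosed_eq hW.cont continuous_const).measurableSet
  have hsmall : ∀ x ∈ S, |w x| < c := fun x hx => by
    rw [(hS.mem_iff x).1 hx, abs_zero]; exact hW.cpos
  have hK := hW.K_nonneg
  have hjac : ∀ ζ : E → ℝ, ∀ x ∈ S, jac W ζ x = stab w ζ x := by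
    intro ζ x hx
    have h1 := hg x (hsmall x hx)
    have h2 := hH x (hsmall x hx)
    unfold jac stab H63.lap hessSq tr
    rw [h1, h2, H313.grad_eq_gradient]
    ring
  have hη : ∀ j x, ⟪b j x, grad W x⟫ = ⟪grad W ((1 : E →L[ℝ] E) x), b j x⟫ := by
    intro j x
    rw [real_inner_comm]; rfl
  have hηf : ∀ j, (fun x => ⟪b j x, grad W x⟫) = fun x => ⟪grad W ((1 : E →L[ℝ] E) x), b j x⟫ :=
    fun j => funext (hη j)
  set B : ℝ := K * ∑ j, ‖b j‖ with hB
  have hB0 : 0 ≤ B := mul_nonneg hK (Finset.sum_nonneg fun j _ => norm_nonneg _)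
  have hBj : ∀ j, K * ‖b j‖ ≤ B := fun j =>
    mul_le_mul_of_nonneg_left (Finset.single_le_sum (f := fun j => ‖b j‖)
      (fun i _ => norm_nonneg _) (Finset.mem_univ j)) hK
  set K' : ℝ := K + |C'| + B with hK'
  have hC0 := abs_nonneg C'
  have hv2 : ∀ i, ContDiff ℝ 2 (v i) := fun i => (hv.smooth i).of_le (by norm_num)
  have hgr : ∀ i x, ∀ n ≤ 3, ‖iteratedFDeriv ℝ n (v i) x‖ ≤ K' * (1 + ‖x‖) ^ q := by
    intro i x n hn
    refine (hv.growth i x n hn).trans ?_
    have h1 : C' ≤ K' := by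
      have := le_abs_self C'
      rw [hK']; linarith
    have h2 : 0 ≤ (1 + ‖x‖) ^ q := by positivity
    exact mul_le_mul_of_nonneg_right h1 h2
  have hK'0 : 0 ≤ K' := by positivity
  refine ⟨K', q, ?_⟩
  refine
    { tube := hW.mono (by rw [hK']; linarith)
      W3 := hW3
      Wb3 := hWb3
      dens := fun x b hb => ?_
      zero := ?_
      cd := hv.smooth
      b0 := fun i x => ?_
      b1 := fun i x => ?_
      b2 := fun i x => (norm_hess_eq_iter (hv2 i) x).le.trans (hgr i x 2 (by norm_num))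
      b3 := fun i => ⟨K', q, hK'0, fun x => (norm_third_eq_iter (hv.smooth i) x).le.trans
        (hgr i x 3 le_rfl)⟩
      perp := fun i x hx => ?_
      jac0 := fun i x hx => ?_
      ηcd := fun j => ?_
      η0 := fun j x => ?_
      η1 := fun j x => ?_
      on := fun i j => ?_
      orth := fun i j => ?_
      hnd := fun u hu hu2 hweak => ?_
      nd := fun a ha => ?_ }
  · have := density_le (m := m) hE hW x hb
    rw [hSe] at this
    exact this
  · filter_upwards [ae_restrict_mem hSm] with x hx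
    exact (hWS x).2 hx
  · have := hgr i x 0 (by norm_num)
    rwa [norm_iteratedFDeriv_zero, Real.norm_eq_abs] at this
  · rw [norm_grad_eq_iter]
    exact hgr i x 1 (by norm_num)
  · have h1 := hsm x hx
    rw [hg x h1]
    exact hv.normal i x (h1.trans hcδ)
  · have h1 := (hWS x).1 hx
    rw [hjac _ x h1]
    exact hv.jacobi i x h1
  · rw [hηf]
    exact contDiff_inner_grad hW 1 (b j)
  · have h1 : |⟪b j x, grad W x⟫| ≤ (‖b j‖ * ‖x‖) * K :=
      (abs_real_inner_le_norm _ _).trans (mul_le_mul ((b j).le_opNorm x) (hW.b1 x)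
        (norm_nonneg _) (by positivity))
    refine h1.trans ?_
    have h2 := hBj j
    have h3 : K * ‖b j‖ ≤ K' := h2.trans (by rw [hK']; linarith)
    have h4 := norm_nonneg x
    calc ‖b j‖ * ‖x‖ * K = (K * ‖b j‖) * ‖x‖ := by ring
      _ ≤ K' * (1 + ‖x‖) := mul_le_mul h3 (by linarith) h4 hK'0
  · rw [hηf]
    have h1 := norm_grad_inner_grad_le hW (Q := 1) (B := b j) (β := ‖b j‖) (fun y => rfl)
      (norm_nonneg _) (fun y => (b j).le_opNorm y) x
    refine h1.trans ?_
    have h3 : K * ‖b j‖ ≤ K' := (hBj j).trans (by rw [hK']; linarith)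
    have h4 := norm_nonneg x
    exact mul_le_mul_of_nonneg_right h3 (by linarith)
  · have h1 := hv.orthonormal i j
    rw [integral_gaussArea] at h1
    exact h1
  · have h1 := hv.rotation i (b j) (hb j)
    rw [integral_gaussArea] at h1
    rw [← h1]
    refine integral_congr_ae ((ae_restrict_mem hSm).mono fun x hx => ?_)
    simp only
    rw [hg x (hsmall x hx)]
  · have hJ : IsJacobiField m S w u := by
      refine ⟨(memLp_two_iff_integrable_sq (hu.mono_ac gaussArea_ac)).2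
        (integrable_gaussArea hu2), fun η hη hηc => ?_⟩
      rw [integral_gaussArea, ← hweak η hη hηc]
      refine integral_congr_ae ((ae_restrict_mem hSm).mono fun x hx => ?_)
      simp only
      rw [hjac η x hx]
    obtain ⟨a, A, hA, hAu⟩ := hv.span u hJ
    obtain ⟨y, hy⟩ := hspan A hA
    refine ⟨a, y, ?_⟩
    have h1 : u =ᵐ[(μH[m] : Measure E).restrict S]
        fun x => ∑ i, a i * v i x + ⟪A x, gradient w x⟫ := ac_gaussArea.ae_eq hAu
    filter_upwards [h1, hy, ae_restrict_mem hSm] with x hx hyx hxS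
    rw [hx, ← hyx, hg x (hsmall x hxS)]
  · have h1 := hnd (fun j => a j) fun i => ?_
    · ext j
      exact congrFun h1 j
    · rw [← ha i]
      unfold cubicForm Phi
      rw [integral_gaussArea]
      refine integral_congr_ae ((ae_restrict_mem hSm).mono fun x hx => ?_)
      simp only
      rw [hH x (hsmall x hx)]
      rfl

/-- the same with the velocities of the Cayley family, `b` a basis of a space `M'` of skew
operators containing all the rotation fields -/
theorem sod_of (hE : Module.finrank ℝ E = m + 1) (hS : IsTubeShrinker S w δ C)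
    (hW : TubeD W c K) (hWS : ∀ x, W x = 0 ↔ x ∈ S) (hcδ : c < δ)
    (hsm : ∀ x, |W x| < c → |w x| < c)
    (hg : ∀ x, |w x| < c → grad W x = gradient w x)
    (hH : ∀ x, |w x| < c → fderiv ℝ (grad W) x = fderiv ℝ (gradient w) x)
    (hW3 : ContDiff ℝ 3 W) (hWb3 : PB (fderiv ℝ (fderiv ℝ (grad W))))
    {C' : ℝ} (hv : IsJacobiBasis m S w δ C' q v) (hnd : SecondOrderNondegenerate m S w v)
    {M' : Submodule ℝ (E →L[ℝ] E)} (hM' : M' ≤ skew E) (b : Module.Basis (Fin l) ℝ M')
    (hspan : ∀ A ∈ skew E, ∃ B ∈ M', ∀ᵐ x ∂(μH[m] : Measure E).restrict S,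
      ⟪A x, grad W x⟫ = ⟪B x, grad W x⟫) :
    ∃ (K' : ℝ) (q' : ℕ), SOD m ((μH[m] : Measure E).restrict S) W c K' q' v
      (fun j x => -2 * ⟪grad W x, (b j : E →L[ℝ] E) x⟫) := by
  have h := sod_of_basis (l := l) hE hS hW hWS hcδ hsm hg hH hW3 hWb3 hv hnd
    (b := fun j => (-2 : ℝ) • (b j : E →L[ℝ] E)) (fun j => (skew E).smul_mem _ (hM' (b j).2))
    fun A hA => ?_
  · have e : (fun (j : Fin l) x => ⟪((-2 : ℝ) • (b j : E →L[ℝ] E)) x, grad W x⟫)
        = fun (j : Fin l) x => -2 * ⟪grad W x, (b j : E →L[ℝ] E) x⟫ := by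
      funext j x
      rw [smul_apply, real_inner_smul_left, real_inner_comm]
    rw [e] at h
    exact h
  · obtain ⟨B, hB, hAB⟩ := hspan A hA
    refine ⟨fun j => -(1 / 2) * b.repr ⟨B, hB⟩ j, ?_⟩
    filter_upwards [hAB] with x hx
    rw [hx]
    have h1 : B = ∑ j, b.repr ⟨B, hB⟩ j • (b j : E →L[ℝ] E) := by
      have h2 := congrArg (fun z : M' => (z : E →L[ℝ] E)) (b.sum_repr ⟨B, hB⟩)
      simp only [Submodule.coe_sum, Submodule.coe_smul] at h2
      exact h2.symm
    have h3 : ⟪B x, grad W x⟫ = ∑ j, b.repr ⟨B, hB⟩ j * ⟪(b j : E →L[ℝ] E) x, grad W x⟫ := by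
      conv_lhs => rw [h1]
      rw [sum_apply, sum_inner]
      refine Finset.sum_congr rfl fun j _ => ?_
      rw [smul_apply, real_inner_smul_left]
    rw [h3]
    refine Finset.sum_congr rfl fun j _ => ?_
    rw [smul_apply, real_inner_smul_left]
    ring

/-- a complement of the stabiliser -/
theorem exists_compl (κ : Measure E) (W : E → ℝ) :
    ∃ M' : Submodule ℝ (E →L[ℝ] E), M' ≤ skew E ∧
      (∀ A ∈ skew E, ∃ B ∈ M', ∀ᵐ x ∂κ, ⟪A x, grad W x⟫ = ⟪B x, grad W x⟫) ∧
      ∀ B ∈ M', (∀ᵐ x ∂κ, ⟪B x, grad W x⟫ = 0) → B = 0 := by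
  let st : Submodule ℝ (E →L[ℝ] E) :=
    { carrier := {A | A ∈ skew E ∧ ∀ᵐ x ∂κ, ⟪A x, grad W x⟫ = 0}
      add_mem' := by
        rintro A B ⟨hA, hA'⟩ ⟨hB, hB'⟩
        refine ⟨(skew E).add_mem hA hB, ?_⟩
        filter_upwards [hA', hB'] with x h1 h2
        rw [add_apply, inner_add_left, h1, h2, add_zero]
      zero_mem' := ⟨(skew E).zero_mem, Eventually.of_forall fun x => by simp⟩
      smul_mem' := by
        rintro k A ⟨hA, hA'⟩
        refine ⟨(skew E).smul_mem k hA, ?_⟩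
        filter_upwards [hA'] with x h1
        rw [smul_apply, real_inner_smul_left, h1, mul_zero] }
  have hst : st ≤ skew E := fun A hA => hA.1
  obtain ⟨Q, hQ⟩ := exists_isCompl st
  have hsum : st ⊔ (Q ⊓ skew E) = skew E := by
    rw [← sup_inf_assoc_of_le Q hst, hQ.sup_eq_top, top_inf_eq]
  refine ⟨Q ⊓ skew E, inf_le_right, fun A hA => ?_, fun B hB hB0 => ?_⟩
  · rw [← hsum] at hA
    obtain ⟨s, hs, B, hB, rfl⟩ := Submodule.mem_sup.1 hA
    refine ⟨B, hB, ?_⟩
    filter_upwards [hs.2] with x h5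
    rw [add_apply, inner_add_left, h5, zero_add]
  · have h1 : B ∈ st ⊓ Q := ⟨⟨hB.2, hB0⟩, hB.1⟩
    rwa [hQ.inf_eq_bot, Submodule.mem_bot] at h1

end Vale.Agent.P218.H969
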